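import Vale.Agent.P043.T2.H372.Piece

/-! The two pure relations in Fourier form. -/

namespace Vale.Agent.P043.T2.H372

open MeasureTheory Vale.Agent.P043.T2

lemma kap_S0 : kap 26901 = s0 := by decide
lemma kap_S1 : kap 17200 = s1 := by decide

lemma Pie_disj {h h' : K} {a b c d : ℝ} (hbc : b ≤ c) : Disjoint (Pie h a b) (Pie h' c d) := by
  rw [Set.disjoint_left]
  rintro x ⟨-, -, -, -, h1⟩ ⟨-, -, -, h2, -⟩
  linarith

lemma Eb_eq (τ : Bool) (t c c' : ℝ) (i : Ix) (w : ℤ) (hw : kap w = sh τ i)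
    (h1 : c' ≤ c + (row τ i : ℝ) * t) :
    Eb τ t c c' i = Pie (kap (w + (26901 + 17200))) 0 c' ∪
      (Pie (kap (w + 26901)) c' (c + (row τ i : ℝ) * t) ∪
        Pie (kap w) (c + (row τ i : ℝ) * t) (1 / 44100)) := by
  ext x
  have hb := fy_bounds x
  have k1 : kap (w + (26901 + 17200)) = sh τ i + (s1 + s0) := by
    rw [kap_add, kap_add, kap_S0, kap_S1, hw, add_comm s0 s1]
  have k2 : kap (w + 26901) = sh τ i + s0 := by rw [kap_add, kap_S0, hw]
  rw [k1, k2, hw]
  simp only [Eb, Pie, Set.mem_union, Set.mem_ofPred_eq]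
  rcases lt_or_ge (fy x) c' with h | h
  · have h2 : fy x < c + (row τ i : ℝ) * t := lt_of_lt_of_le h h1
    rw [if_pos h, if_pos h2, add_assoc]
    constructor
    · rintro ⟨a, b, e⟩
      exact Or.inl ⟨a, b, e, hb.1, h⟩
    · rintro (⟨a, b, e, -, -⟩ | ⟨-, -, -, e, -⟩ | ⟨-, -, -, e, -⟩)
      · exact ⟨a, b, e⟩
      · exact absurd h (not_lt.mpr e)
      · exact absurd h2 (not_lt.mpr e)
  · rcases lt_or_ge (fy x) (c + (row τ i : ℝ) * t) with h2 | h2
    · rw [if_neg (not_lt.mpr h), if_pos h2, add_zero]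
      constructor
      · rintro ⟨a, b, e⟩
        exact Or.inr (Or.inl ⟨a, b, e, h, h2⟩)
      · rintro (⟨-, -, -, -, e⟩ | ⟨a, b, e, -, -⟩ | ⟨-, -, -, e, -⟩)
        · exact absurd e (not_lt.mpr h)
        · exact ⟨a, b, e⟩
        · exact absurd h2 (not_lt.mpr e)
    · rw [if_neg (not_lt.mpr h), if_neg (not_lt.mpr h2), add_zero, add_zero]
      constructor
      · rintro ⟨a, b, e⟩
        exact Or.inr (Or.inr ⟨a, b, e, h2, hb.2⟩)
      · rintro (⟨-, -, -, -, e⟩ | ⟨-, -, -, -, e⟩ | ⟨a, b, e, -, -⟩)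
        · exact absurd e (not_lt.mpr h)
        · exact absurd e (not_lt.mpr h2)
        · exact ⟨a, b, e⟩

lemma Eb_int (j : ℤ) (τ : Bool) (t c c' : ℝ) (i : Ix) (w : ℤ) (hw : kap w = sh τ i)
    (h0 : 0 ≤ c') (h1 : c' ≤ c + (row τ i : ℝ) * t) (h2 : c + (row τ i : ℝ) * t ≤ 1 / 44100) :
    ∫ x in Eb τ t c c' i, ee j x = ee j ((w : ℝ) / 44100) *
      (ee j (26901 / 44100) * ee j (17200 / 44100) * (∫ x in (0 : ℝ)..c', ee j x) +
        ee j (26901 / 44100) * (∫ x in c'..(c + (row τ i : ℝ) * t), ee j x) +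
        ∫ x in (c + (row τ i : ℝ) * t)..(1 / 44100), ee j x) := by
  have h3 : 0 ≤ c + (row τ i : ℝ) * t := le_trans h0 h1
  rw [Eb_eq τ t c c' i w hw h1, setIntegral_union, setIntegral_union,
    Pie_int j _ le_rfl h0 (le_trans h1 h2), Pie_int j _ h0 h1 h2, Pie_int j _ h3 h2 le_rfl]
  · have e1 : ee j (((w + (26901 + 17200) : ℤ) : ℝ) / 44100) =
        ee j ((w : ℝ) / 44100) * (ee j (26901 / 44100) * ee j (17200 / 44100)) := by
      rw [← ee_add, ← ee_add]
      congr 1
      push_cast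
      ring
    have e2 : ee j (((w + 26901 : ℤ) : ℝ) / 44100) =
        ee j ((w : ℝ) / 44100) * ee j (26901 / 44100) := by
      rw [← ee_add]
      congr 1
      push_cast
      ring
    rw [e1, e2]
    ring
  · exact Pie_disj le_rfl
  · exact Pie_meas _ h3 le_rfl
  · exact Pie_integrable j _ h0 h2
  · exact Pie_integrable j _ h3 le_rfl
  · exact Set.disjoint_union_right.mpr ⟨Pie_disj le_rfl, Pie_disj h1⟩
  · exact (Pie_meas _ h0 h2).union (Pie_meas _ h3 le_rfl)
  · exact Pie_integrable j _ le_rfl (le_trans h1 h2)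
  · exact (Pie_integrable j _ h0 h2).union (Pie_integrable j _ h3 le_rfl)

/-- integer with class `sh true i` -/
def ww (i : Ix) : ℤ := 11025 * (i.1 : ℕ) + 34300 * (i.2.1 : ℕ)

lemma kap_ww (i : Ix) : kap (ww i) = sh true i := by
  obtain ⟨a, b, c, d⟩ := i
  have h : ∀ a : Fin 2, ∀ b : Fin 3, kap (11025 * ((a : ℕ) : ℤ) + 34300 * ((b : ℕ) : ℤ)) =
      (((a : ℕ) : ZMod 4), ((b : ℕ) : ZMod 9), 0, 0) := by decide
  have h1 := h a b
  simp only [ww, sh, if_true]
  exact h1

lemma row_bounds (i : Ix) : 0 ≤ row true i ∧ row true i ≤ 2000000 := by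
  obtain ⟨a, b, c, d⟩ := i
  have ha := a.2
  have hb := b.2
  have hc := c.2
  have hd := d.2
  simp only [row, if_true]
  omega

lemma rt_bounds {t : ℝ} (ht : Good t) (i : Ix) :
    0 ≤ (row true i : ℝ) * t ∧ (row true i : ℝ) * t ≤ al / 2 := by
  obtain ⟨h1, h2⟩ := row_bounds i
  have h1' : (0 : ℝ) ≤ (row true i : ℝ) := by exact_mod_cast h1
  have h2' : (row true i : ℝ) ≤ 2000000 := by exact_mod_cast h2
  have ht0 := ht.1
  have ht1 := ht.2.1
  constructor
  · positivity
  · nlinarith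

lemma al_pos : 0 < al := by unfold al; norm_num
lemma al3 : 3 * al = 1 / 44100 := by unfold al; norm_num

theorem E0_int (j : ℤ) {t : ℝ} (ht : Good t) (i : Ix) :
    ∫ x in E t 0 i, ee j x = ee j ((ww i : ℝ) / 44100) *
      (ee j (26901 / 44100) * (∫ x in (0 : ℝ)..(al + (row true i : ℝ) * t), ee j x) +
        ∫ x in (al + (row true i : ℝ) * t)..(1 / 44100), ee j x) := by
  obtain ⟨h1, h2⟩ := rt_bounds ht i
  have h3 := al_pos
  have h4 := al3
  have : E t 0 i = Eb true t al 0 i := by simp [E]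
  rw [this, Eb_int j true t al 0 i (ww i) (kap_ww i) le_rfl (by linarith) (by linarith)]
  simp

theorem E3_int (j : ℤ) {t : ℝ} (ht : Good t) (i : Ix) :
    ∫ x in E t 3 i, ee j x = ee j ((ww i : ℝ) / 44100) *
      (ee j (26901 / 44100) * (∫ x in (0 : ℝ)..(2 * al + (row true i : ℝ) * t), ee j x) +
        ∫ x in (2 * al + (row true i : ℝ) * t)..(1 / 44100), ee j x) := by
  obtain ⟨h1, h2⟩ := rt_bounds ht i
  have h3 := al_pos
  have h4 := al3
  have : E t 3 i = Eb true t (2 * al) 0 i := by simp [E]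
  rw [this, Eb_int j true t (2 * al) 0 i (ww i) (kap_ww i) le_rfl (by linarith) (by linarith)]
  simp

theorem E2_int (j : ℤ) {t : ℝ} (ht : Good t) (i : Ix) :
    ∫ x in E t 2 i, ee j x = ee j ((ww i : ℝ) / 44100) *
      (ee j (26901 / 44100) * ee j (17200 / 44100) * (∫ x in (0 : ℝ)..al, ee j x) +
        ee j (26901 / 44100) * (∫ x in al..(al + (row true i : ℝ) * t), ee j x) +
        ∫ x in (al + (row true i : ℝ) * t)..(1 / 44100), ee j x) := by
  obtain ⟨h1, h2⟩ := rt_bounds ht i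
  have h3 := al_pos
  have h4 := al3
  have : E t 2 i = Eb true t al al i := by simp [E]
  rw [this, Eb_int j true t al al i (ww i) (kap_ww i) h3.le (by linarith) (by linarith)]

lemma ii (j : ℤ) (a b : ℝ) : IntervalIntegrable (ee j) volume a b :=
  (ee_continuous j).intervalIntegrable a b

theorem st_hat1 : StHat1 := by
  refine ⟨ww, fun t ht j hj => ?_⟩
  have hj1 : ¬ ((132300 : ℤ) ∣ j) := fun h => hj (dvd_trans (by norm_num) h)
  have hne : ee j (26901 / 44100) ≠ 1 := by
    apply ee_ne_one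
    intro n hn
    apply hj
    have h2 : (j : ℝ) * 61 = 100 * n := by
      have : (j : ℝ) * (26901 / 44100) = j * 61 / 100 := by ring
      rw [this] at hn
      field_simp at hn
      linarith
    have h3 : j * 61 = 100 * n := by exact_mod_cast h2
    omega
  refine ⟨(ee j (26901 / 44100) - 1) * ∫ x in al..(al + al), ee j x,
    mul_ne_zero (sub_ne_zero.mpr hne) (ee_int_ne_zero hj1 al), fun i => ?_⟩
  rw [E3_int j ht i, E0_int j ht i]
  have a1 : ∫ x in (0 : ℝ)..(2 * al + (row true i : ℝ) * t), ee j x =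
      (∫ x in (0 : ℝ)..(al + (row true i : ℝ) * t), ee j x) +
        ∫ x in (al + (row true i : ℝ) * t)..(2 * al + (row true i : ℝ) * t), ee j x :=
    (intervalIntegral.integral_add_adjacent_intervals (ii j _ _) (ii j _ _)).symm
  have a2 : ∫ x in (al + (row true i : ℝ) * t)..(1 / 44100), ee j x =
      (∫ x in (al + (row true i : ℝ) * t)..(2 * al + (row true i : ℝ) * t), ee j x) +
        ∫ x in (2 * al + (row true i : ℝ) * t)..(1 / 44100), ee j x :=
    (intervalIntegral.integral_add_adjacent_intervals (ii j _ _) (ii j _ _)).symm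
  have a3 : ∫ x in (al + (row true i : ℝ) * t)..(2 * al + (row true i : ℝ) * t), ee j x =
      ee j ((row true i : ℝ) * t) * ∫ x in al..(al + al), ee j x := by
    rw [← intervalIntegral.integral_const_mul]
    have h1 : ∫ x in al..(al + al), ee j (((row true i : ℝ) * t) + x) =
        ∫ x in ((row true i : ℝ) * t + al)..((row true i : ℝ) * t + (al + al)), ee j x := by
      rw [intervalIntegral.integral_comp_add_left (fun x => ee j x)]
    have e1 : al + (row true i : ℝ) * t = (row true i : ℝ) * t + al := by ring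
    have e2 : 2 * al + (row true i : ℝ) * t = (row true i : ℝ) * t + (al + al) := by ring
    rw [e1, e2, ← h1]
    congr 1
    funext x
    rw [ee_add]
  rw [a1, a2, a3, ee_add]
  ring

theorem st_hat0 : StHat0 := by
  refine ⟨ww, fun t ht j hj => ?_⟩
  have hj1 : ¬ ((132300 : ℤ) ∣ j) := fun h => hj (dvd_trans (by norm_num) h)
  have hne : ee j (17200 / 44100) ≠ 1 := by
    apply ee_ne_one
    intro n hn
    apply hj
    have h2 : (j : ℝ) * 172 = 441 * n := by
      have : (j : ℝ) * (17200 / 44100) = j * 172 / 441 := by ring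
      rw [this] at hn
      field_simp at hn
      linarith
    have h3 : j * 172 = 441 * n := by exact_mod_cast h2
    omega
  have hI := ee_int_ne_zero hj1 0
  rw [zero_add] at hI
  refine ⟨ee j (26901 / 44100) * (ee j (17200 / 44100) - 1) * ∫ x in (0 : ℝ)..al, ee j x,
    mul_ne_zero (mul_ne_zero (ee_ne_zero _ _) (sub_ne_zero.mpr hne)) hI, fun i => ?_⟩
  rw [E2_int j ht i, E0_int j ht i]
  have a1 : ∫ x in (0 : ℝ)..(al + (row true i : ℝ) * t), ee j x =
      (∫ x in (0 : ℝ)..al, ee j x) + ∫ x in al..(al + (row true i : ℝ) * t), ee j x :=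
    (intervalIntegral.integral_add_adjacent_intervals (ii j _ _) (ii j _ _)).symm
  rw [a1]
  ring

end Vale.Agent.P043.T2.H372
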