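import Vale.Agent.P043.T2.Defs

/-! Integrals of the characters over the pieces of the fundamental domains. -/

namespace Vale.Agent.P043.T2.H372

open MeasureTheory Vale.Agent.P043.T2

/-- the piece: cells of the class `h`, positions in `[a,b)` -/
def Pie (h : K) (a b : ℝ) : Set ℝ :=
  {x | 0 ≤ x ∧ x < 1 ∧ kap ⌊44100 * x⌋ = h ∧ a ≤ fy x ∧ fy x < b}

lemma kap_add (m n : ℤ) : kap (m + n) = kap m + kap n := by
  simp [kap]

lemma kap_inj {m n : ℤ} (h : kap m = kap n) : (44100 : ℤ) ∣ m - n := by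
  simp only [kap, Prod.mk.injEq] at h
  obtain ⟨h4, h9, h25, h49⟩ := h
  rw [ZMod.intCast_eq_intCast_iff_dvd_sub] at h4 h9 h25 h49
  push_cast at h4 h9 h25 h49
  have a1 : (4 * 9 : ℤ) ∣ n - m := IsCoprime.mul_dvd (by norm_num) h4 h9
  have a2 : (4 * 9 * 25 : ℤ) ∣ n - m := IsCoprime.mul_dvd (by norm_num) a1 h25
  have a3 : (4 * 9 * 25 * 49 : ℤ) ∣ n - m := IsCoprime.mul_dvd (by norm_num) a2 h49
  have a4 : (44100 : ℤ) ∣ n - m := by
    have : (4 * 9 * 25 * 49 : ℤ) = 44100 := by norm_num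
    rwa [this] at a3
  exact (dvd_sub_comm).mp a4

lemma kap_emod (w : ℤ) : kap (w % 44100) = kap w := by
  have h : w % 44100 = w + 44100 * (-(w / 44100)) := by
    have := Int.emod_add_mul_ediv w 44100
    omega
  rw [h, kap_add]
  have h2 : kap (44100 * (-(w / 44100))) = 0 := by
    simp only [kap]
    have e4 : ((44100 : ℤ) : ZMod 4) = 0 := by decide
    have e9 : ((44100 : ℤ) : ZMod 9) = 0 := by decide
    have e25 : ((44100 : ℤ) : ZMod 25) = 0 := by decide
    have e49 : ((44100 : ℤ) : ZMod 49) = 0 := by decide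
    rw [Int.cast_mul, Int.cast_mul, Int.cast_mul, Int.cast_mul, e4, e9, e25, e49]
    simp
  rw [h2, add_zero]

lemma ee_add (j : ℤ) (x y : ℝ) : ee j (x + y) = ee j x * ee j y := by
  simp only [ee]
  rw [← Complex.exp_add]
  push_cast
  ring_nf

lemma ee_int (j m : ℤ) : ee j (m : ℝ) = 1 := by
  simp only [ee]
  rw [Complex.exp_eq_one_iff]
  exact ⟨j * m, by push_cast; ring⟩

lemma ee_emod (j w : ℤ) : ee j (((w % 44100 : ℤ) : ℝ) / 44100) = ee j ((w : ℝ) / 44100) := by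
  have h : (w : ℝ) / 44100 = ((w % 44100 : ℤ) : ℝ) / 44100 + ((w / 44100 : ℤ) : ℝ) := by
    have h1 : ((w % 44100 + 44100 * (w / 44100) : ℤ) : ℝ) = (w : ℝ) := by
      rw [Int.emod_add_mul_ediv w 44100]
    push_cast at h1
    rw [← h1]
    ring
  rw [h, ee_add, ee_int, mul_one]

lemma ee_continuous (j : ℤ) : Continuous (ee j) := by
  unfold ee
  fun_prop

lemma fy_eq {n : ℤ} {x : ℝ} (h1 : (n : ℝ) / 44100 ≤ x) (h2 : x < (n : ℝ) / 44100 + 1 / 44100) :
    ⌊44100 * x⌋ = n ∧ fy x = x - n / 44100 := by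
  have h : ⌊44100 * x⌋ = n := by
    rw [Int.floor_eq_iff]
    constructor
    · linarith
    · linarith
  refine ⟨h, ?_⟩
  unfold fy
  rw [h]

lemma fy_bounds (x : ℝ) : 0 ≤ fy x ∧ fy x < 1 / 44100 := by
  unfold fy
  have h1 := Int.floor_le (44100 * x)
  have h2 := Int.lt_floor_add_one (44100 * x)
  constructor
  · linarith
  · linarith

lemma Pie_eq {n : ℤ} (h0 : 0 ≤ n) (h1 : n < 44100) {a b : ℝ} (ha : 0 ≤ a) (hb : b ≤ 1 / 44100) :
    Pie (kap n) a b = Set.Ico ((n : ℝ) / 44100 + a) ((n : ℝ) / 44100 + b) := by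
  have h0' : (0 : ℝ) ≤ n := by exact_mod_cast h0
  have h1' : (n : ℝ) + 1 ≤ 44100 := by exact_mod_cast h1
  ext x
  simp only [Pie, Set.mem_ofPred_eq, Set.mem_Ico]
  constructor
  · rintro ⟨hx0, hx1, hk, h3, h4⟩
    have hd := kap_inj hk
    have hf0 : 0 ≤ ⌊44100 * x⌋ := Int.floor_nonneg.mpr (by linarith)
    have hf1 : ⌊44100 * x⌋ < 44100 := by
      rw [Int.floor_lt]; push_cast; linarith
    have : ⌊44100 * x⌋ = n := by omega
    unfold fy at h3 h4
    rw [this] at h3 h4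
    constructor <;> linarith
  · rintro ⟨h3, h4⟩
    obtain ⟨e1, e2⟩ := fy_eq (n := n) (x := x) (by linarith) (by linarith)
    rw [e1, e2]
    refine ⟨?_, ?_, rfl, by linarith, by linarith⟩
    · have : (0 : ℝ) ≤ (n : ℝ) / 44100 := by positivity
      linarith
    · have : ((n : ℝ) + 1) / 44100 ≤ 1 := by
        rw [div_le_one (by norm_num)]; exact h1'
      have h5 : x < (n : ℝ) / 44100 + 1 / 44100 := by linarith
      have h6 : (n : ℝ) / 44100 + 1 / 44100 = ((n : ℝ) + 1) / 44100 := by ring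
      linarith

lemma Pie_meas (w : ℤ) {a b : ℝ} (ha : 0 ≤ a) (hb : b ≤ 1 / 44100) :
    MeasurableSet (Pie (kap w) a b) := by
  rw [← kap_emod w, Pie_eq (Int.emod_nonneg _ (by norm_num)) (Int.emod_lt_of_pos _ (by norm_num))
    ha hb]
  exact measurableSet_Ico

lemma Pie_int (j w : ℤ) {a b : ℝ} (ha : 0 ≤ a) (hab : a ≤ b) (hb : b ≤ 1 / 44100) :
    ∫ x in Pie (kap w) a b, ee j x = ee j ((w : ℝ) / 44100) * ∫ x in a..b, ee j x := by
  rw [← kap_emod w, Pie_eq (Int.emod_nonneg _ (by norm_num)) (Int.emod_lt_of_pos _ (by norm_num))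
    ha hb, integral_Ico_eq_integral_Ioc,
    ← intervalIntegral.integral_of_le (by linarith), ← ee_emod j w]
  have h1 : ∫ x in a..b, ee j ((((w % 44100 : ℤ) : ℝ) / 44100) + x) =
      ∫ x in (((w % 44100 : ℤ) : ℝ) / 44100 + a)..(((w % 44100 : ℤ) : ℝ) / 44100 + b), ee j x := by
    rw [intervalIntegral.integral_comp_add_left (fun x => ee j x)]
  rw [← h1, ← intervalIntegral.integral_const_mul]
  congr 1
  funext x
  rw [ee_add]

lemma Pie_integrable (j w : ℤ) {a b : ℝ} (ha : 0 ≤ a) (hb : b ≤ 1 / 44100) :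
    IntegrableOn (ee j) (Pie (kap w) a b) := by
  rw [← kap_emod w, Pie_eq (Int.emod_nonneg _ (by norm_num)) (Int.emod_lt_of_pos _ (by norm_num))
    ha hb]
  exact ((ee_continuous j).integrableOn_Icc).mono_set Set.Ico_subset_Icc_self

lemma ee_ne_one {j : ℤ} {x : ℝ} (h : ∀ n : ℤ, (j : ℝ) * x ≠ n) : ee j x ≠ 1 := by
  intro h1
  simp only [ee] at h1
  rw [Complex.exp_eq_one_iff] at h1
  obtain ⟨n, hn⟩ := h1
  have h2 : (2 * Real.pi * Complex.I : ℂ) ≠ 0 := by
    simp [Complex.I_ne_zero, Real.pi_ne_zero]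
  have h3 : ((j : ℂ) * (x : ℂ)) = n := by
    have : (2 * Real.pi * Complex.I : ℂ) * ((j : ℂ) * x) = (2 * Real.pi * Complex.I : ℂ) * n := by
      linear_combination hn
    exact mul_left_cancel₀ h2 this
  apply h n
  exact_mod_cast h3

lemma ee_int_val {j : ℤ} (hj : j ≠ 0) (a b : ℝ) :
    ∫ x in a..b, ee j x = (ee j b - ee j a) / (2 * Real.pi * Complex.I * j) := by
  have hc : (2 * Real.pi * Complex.I * j : ℂ) ≠ 0 := by
    simp [Complex.I_ne_zero, Real.pi_ne_zero, hj]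
  have := integral_exp_mul_complex (a := a) (b := b) hc
  simpa [ee] using this

lemma ee_ne_zero (j : ℤ) (x : ℝ) : ee j x ≠ 0 := Complex.exp_ne_zero _

/-- `∫_{k al}^{(k+1) al} ee j` does not vanish unless `132300 ∣ j`. -/
lemma ee_int_ne_zero {j : ℤ} (hj : ¬ ((132300 : ℤ) ∣ j)) (a : ℝ) :
    ∫ x in a..(a + al), ee j x ≠ 0 := by
  have hj0 : j ≠ 0 := by rintro rfl; exact hj (dvd_zero _)
  have hc : (2 * Real.pi * Complex.I * j : ℂ) ≠ 0 := by
    simp [Complex.I_ne_zero, Real.pi_ne_zero, hj0]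
  rw [ee_int_val hj0, ee_add]
  have h1 : ee j al ≠ 1 := by
    apply ee_ne_one
    intro n hn
    apply hj
    unfold al at hn
    have h2 : (j : ℝ) = 132300 * n := by
      field_simp at hn
      linarith
    exact ⟨n, by exact_mod_cast h2⟩
  have h2 : ee j a * ee j al - ee j a ≠ 0 := by
    have : ee j a * ee j al - ee j a = ee j a * (ee j al - 1) := by ring
    rw [this]
    exact mul_ne_zero (ee_ne_zero j a) (sub_ne_zero.mpr h1)
  exact div_ne_zero h2 hc

end Vale.Agent.P043.T2.H372
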